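import Vale.Agent.P079.Key

open Filter Topology Set

namespace Vale.Agent.P079

variable {X : Type*} [NormedAddCommGroup X] [NormedSpace ℝ X]

/-- epsilon form of the inequality `R(a, X) ≤ R` for the coefficient of Dominguez Benavides,
tested only on weakly null sequences of the unit ball with all mutual distances at most one -/
def DBCoef (X : Type*) [NormedAddCommGroup X] [NormedSpace ℝ X] (a R : ℝ) : Prop :=
  ∀ (x : X) (u : ℕ → X), ‖x‖ ≤ a → (∀ n, ‖u n‖ ≤ 1) → (∀ n m, ‖u n - u m‖ ≤ 1) →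
    WTendsto u atTop 0 → ∀ η > 0, ∃ n, ‖u n + x‖ ≤ R + η

theorem DBCoef.nonneg {a R : ℝ} (ha : 0 ≤ a) (h : DBCoef X a R) : 0 ≤ R := by
  apply le_of_forall_pos_le_add
  intro η hη
  obtain ⟨n, hn⟩ := h 0 (fun _ => 0) (by simpa using ha) (by simp) (by simp)
    (wtendsto_const _ 0) η hη
  simpa using hn

theorem WTendsto.const_smul {ι : Type*} {u : ι → X} {l : Filter ι} {x : X}
    (hu : WTendsto u l x) (c : ℝ) : WTendsto (fun i => c • u i) l (c • x) := by
  intro f
  simpa using (hu f).const_mul c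

variable [CompleteSpace X]

theorem db_key
    (hrefl : Function.Surjective (NormedSpace.inclusionInDoubleDual ℝ X))
    {a R : ℝ} (ha : 0 < a) (hDB : DBCoef X a R)
    {T : X → X} {K : Set X} (hK : InvSet T K)
    (hT : ∀ a ∈ K, ∀ b ∈ K, ‖T a - T b‖ ≤ ‖a - b‖)
    {r : ℝ} (hrpos : 0 < r) (hr : ∀ a ∈ K, ∀ b ∈ K, ‖a - b‖ ≤ r) :
    ∃ xi ∈ K, ∀ t : ℝ, 0 < t → t ≤ 1 → ∀ η > 0, ∃ y ∈ K, ‖y - T y‖ ≤ t * r ∧
      ‖y - xi‖ ≤ R / (1 + a) * r + η := by
  obtain ⟨w0, hw0⟩ := hK.nonempty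
  choose x hxK hxeq using fun n : ℕ => exists_resolvent hK hT hw0
    (t := 1 / ((n : ℝ) + 1)) (by positivity)
    (by rw [div_le_one (by positivity)]; have : (0 : ℝ) ≤ n := Nat.cast_nonneg n; linarith)
  have hxdisp : ∀ n, ‖x n - T (x n)‖ ≤ 1 / ((n : ℝ) + 1) * r := fun n =>
    resolvent_displacement hK hr hw0 (hxK n) (by positivity) (hxeq n)
  have hx0 : Tendsto (fun n => ‖x n - T (x n)‖) atTop (𝓝 0) := by
    apply squeeze_zero (fun k => norm_nonneg _) hxdisp
    have := (tendsto_one_div_add_atTop_nhds_zero_nat (𝕜 := ℝ)).mul_const r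
    simpa using this
  set U : Ultrafilter ℕ := Filter.hyperfilter ℕ with hU
  have hUle : (U : Filter ℕ) ≤ atTop := hyperfilter_le_atTop
  obtain ⟨xi, hxiK, hxi⟩ := exists_wlimit hrefl hK.closed hK.bounded hK.convex U x
    (Eventually.of_forall hxK)
  refine ⟨xi, hxiK, ?_⟩
  intro s hs0 hs1 η hη
  set τ : ℝ := 1 / (1 + a) with hτ
  have h1a : 0 < 1 + a := by linarith
  have hτ0 : 0 < τ := by positivity
  have hτ1 : τ ≤ 1 := by
    rw [hτ, div_le_one h1a]; linarith
  have hτa : 1 - τ = a * τ := by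
    rw [hτ]; field_simp; ring
  have hp : ∀ n, τ • x n + (1 - τ) • xi ∈ K := fun n =>
    hK.convex (hxK n) hxiK hτ0.le (by linarith) (by ring)
  choose y hyK hyeq using fun n : ℕ => exists_resolvent hK hT (hp n) hs0 hs1
  obtain ⟨yl, hylK, hyl⟩ := exists_wlimit hrefl hK.closed hK.bounded hK.convex U y
    (Eventually.of_forall hyK)
  have hpx : ∀ n, ‖(τ • x n + (1 - τ) • xi) - x n‖ ≤ (1 - τ) * r := by
    intro n
    have : (τ • x n + (1 - τ) • xi) - x n = (1 - τ) • (xi - x n) := by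
      simp only [smul_sub, sub_smul, one_smul]; abel
    rw [this, norm_smul, Real.norm_of_nonneg (by linarith)]
    exact mul_le_mul_of_nonneg_left (hr _ hxiK _ (hxK n)) (by linarith)
  have hpp : ∀ n m, ‖(τ • x n + (1 - τ) • xi) - (τ • x m + (1 - τ) • xi)‖ ≤ τ * r := by
    intro n m
    have : (τ • x n + (1 - τ) • xi) - (τ • x m + (1 - τ) • xi) = τ • (x n - x m) := by
      simp only [smul_sub]; abel
    rw [this, norm_smul, Real.norm_of_nonneg hτ0.le]
    exact mul_le_mul_of_nonneg_left (hr _ (hxK n) _ (hxK m)) hτ0.le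
  have hyy : ∀ n m, ‖y n - y m‖ ≤ τ * r := fun n m =>
    (resolvent_dist_resolvent hT (hyK n) (hyK m) hs0 hs1 (hyeq n) (hyeq m)).trans (hpp n m)
  -- the weak limit is close to xi
  have hlim : ‖yl - xi‖ ≤ (1 - τ) * r := by
    apply le_of_forall_pos_le_add
    intro ε hε
    have h1 : WTendsto (fun n => y n - x n) (U : Filter ℕ) (yl - xi) := hyl.sub hxi
    apply norm_le_of_wtendsto h1
    apply hUle
    have h2 : ∀ᶠ n in atTop, ‖x n - T (x n)‖ < ε * s :=
      hx0.eventually (gt_mem_nhds (by positivity))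
    filter_upwards [h2] with n hn
    have h3 := resolvent_dist_approx hT (hyK n) (hxK n) hs0 hs1 (hyeq n)
    have h4 : ‖x n - T (x n)‖ / s ≤ ε := by
      rw [div_le_iff₀ hs0]; exact hn.le
    have h5 := hpx n
    linarith
  -- the weakly null part
  have hu0 : WTendsto (fun n => y n - yl) (U : Filter ℕ) 0 := by
    have := hyl.sub (wtendsto_const (U : Filter ℕ) yl)
    simpa using this
  have hun : ∀ n, ‖y n - yl‖ ≤ τ * r := by
    intro n
    have h1 : WTendsto (fun m => y n - y m) (U : Filter ℕ) (y n - yl) :=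
      (wtendsto_const _ (y n)).sub hyl
    exact norm_le_of_wtendsto h1 (Eventually.of_forall fun m => hyy n m)
  obtain ⟨i, -, hi⟩ := exists_seq_wnull hrefl hun hu0 (P := fun _ => True)
    (Frequently.of_forall fun _ => trivial)
  set c : ℝ := τ * r with hc
  have hc0 : 0 < c := by positivity
  have hcinv : 0 ≤ c⁻¹ := by positivity
  obtain ⟨k, hk⟩ := hDB (c⁻¹ • (yl - xi)) (fun k => c⁻¹ • (y (i k) - yl))
    (by
      rw [norm_smul, Real.norm_of_nonneg hcinv, inv_mul_le_iff₀ hc0]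
      calc ‖yl - xi‖ ≤ (1 - τ) * r := hlim
        _ = c * a := by rw [hτa, hc]; ring)
    (by
      intro n
      rw [norm_smul, Real.norm_of_nonneg hcinv, inv_mul_le_iff₀ hc0, mul_one]
      exact hun _)
    (by
      intro n m
      rw [← smul_sub, norm_smul, Real.norm_of_nonneg hcinv, inv_mul_le_iff₀ hc0, mul_one]
      have : y (i n) - yl - (y (i m) - yl) = y (i n) - y (i m) := by abel
      rw [this]
      exact hyy _ _)
    (by
      have := hi.const_smul c⁻¹
      simpa using this)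
    (η / c) (by positivity)
  refine ⟨y (i k), hyK _, resolvent_displacement hK hr (hp _) (hyK _) hs0 (hyeq _), ?_⟩
  have h1 : c⁻¹ • (y (i k) - yl) + c⁻¹ • (yl - xi) = c⁻¹ • (y (i k) - xi) := by
    rw [← smul_add]; congr 1; abel
  rw [h1, norm_smul, Real.norm_of_nonneg hcinv, inv_mul_le_iff₀ hc0] at hk
  calc ‖y (i k) - xi‖ ≤ c * (R + η / c) := hk
    _ = R / (1 + a) * r + η := by
        rw [hc, hτ]; field_simp

theorem fixedPoint_of_dbCoef
    (hrefl : Function.Surjective (NormedSpace.inclusionInDoubleDual ℝ X))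
    {a R : ℝ} (ha : 0 < a) (hR : R < 1 + a) (hDB : DBCoef X a R)
    (T : X → X) (C : Set X) (hC : InvSet T C)
    (hT : ∀ a ∈ C, ∀ b ∈ C, ‖T a - T b‖ ≤ ‖a - b‖) : ∃ x ∈ C, T x = x := by
  have h1a : 0 < 1 + a := by linarith
  have hR0 := hDB.nonneg ha.le
  apply fixedPoint_of_key hrefl (κ := R / (1 + a)) (by positivity)
    (by rw [div_lt_one h1a]; exact hR) hC hT
  intro K hKC hK r hrpos hr
  exact db_key hrefl ha hDB hK (fun a ha b hb => hT a (hKC ha) b (hKC hb)) hrpos hr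

omit [CompleteSpace X] in
/-- the liminf form of the coefficient inequality implies the epsilon form -/
theorem dbCoef_of_liminf {a R : ℝ}
    (h : ∀ (x : X) (u : ℕ → X), ‖x‖ ≤ a → (∀ n, ‖u n‖ ≤ 1) → (∀ n m, ‖u n - u m‖ ≤ 1) →
      (∀ f : StrongDual ℝ X, Tendsto (fun n => f (u n)) atTop (𝓝 0)) →
      liminf (fun n => ‖u n + x‖) atTop ≤ R) : DBCoef X a R := by
  intro x u hx hu1 hu2 hu η hη
  by_contra hcon
  push Not at hcon
  have hu' : ∀ f : StrongDual ℝ X, Tendsto (fun n => f (u n)) atTop (𝓝 0) := by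
    intro f
    simpa using hu f
  have h1 := h x u hx hu1 hu2 hu'
  have hbd : IsCoboundedUnder (· ≥ ·) atTop (fun n => ‖u n + x‖) := by
    apply IsBoundedUnder.isCoboundedUnder_ge
    refine isBoundedUnder_of ⟨1 + ‖x‖, fun n => ?_⟩
    calc ‖u n + x‖ ≤ ‖u n‖ + ‖x‖ := norm_add_le _ _
      _ ≤ 1 + ‖x‖ := by have := hu1 n; linarith
  have h2 : R + η ≤ liminf (fun n => ‖u n + x‖) atTop :=
    le_liminf_of_le hbd (Eventually.of_forall fun n => (hcon n).le)
  linarith

end Vale.Agent.P079
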