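import Vale.Agent.P079.Final

open Filter Topology Set

namespace Vale.Agent.P079

variable {X : Type*} [NormedAddCommGroup X] [NormedSpace ℝ X]

/-- the dual of a reflexive space is reflexive -/
theorem reflexive_dual
    (hrefl : Function.Surjective (NormedSpace.inclusionInDoubleDual ℝ X)) :
    Function.Surjective (NormedSpace.inclusionInDoubleDual ℝ (StrongDual ℝ X)) := by
  intro Φ
  refine ⟨Φ.comp (NormedSpace.inclusionInDoubleDual ℝ X), ?_⟩
  ext ξ
  obtain ⟨x, rfl⟩ := hrefl ξ
  simp [NormedSpace.dual_def]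

/-- In a reflexive space the near-WORTH inequality passes to the dual with the same constant. -/
theorem NearWorth.dual
    (hrefl : Function.Surjective (NormedSpace.inclusionInDoubleDual ℝ X))
    {μ : ℝ} (hW : NearWorth X μ) : NearWorth (StrongDual ℝ X) μ := by
  intro f u β hu hβ η hη
  by_contra hcon
  push Not at hcon
  have hβ0 : 0 ≤ β := le_trans (norm_nonneg _) (hβ 0)
  -- almost norming vectors
  have hex : ∀ n, ∃ y : X, ‖y‖ ≤ 1 ∧ μ * β + η < (u n + f) y := by
    intro n
    obtain ⟨y, hy1, hy2⟩ := (u n + f).exists_lt_apply_of_lt_opNorm (hcon n)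
    rcases le_total 0 ((u n + f) y) with h | h
    · refine ⟨y, hy1.le, ?_⟩
      rwa [Real.norm_of_nonneg h] at hy2
    · refine ⟨-y, by rw [norm_neg]; exact hy1.le, ?_⟩
      rw [Real.norm_of_nonpos h] at hy2
      rw [map_neg]
      exact hy2
  choose y hy1 hy2 using hex
  set U : Ultrafilter ℕ := Filter.hyperfilter ℕ with hU
  have hUle : (U : Filter ℕ) ≤ atTop := hyperfilter_le_atTop
  obtain ⟨yl, hylK, hyl⟩ := exists_wlimit hrefl (C := Metric.closedBall (0 : X) 1)
    Metric.isClosed_closedBall Metric.isBounded_closedBall (convex_closedBall _ _) U y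
    (Eventually.of_forall fun n => by simpa using hy1 n)
  have hyl1 : ‖yl‖ ≤ 1 := by simpa using hylK
  have hv0 : WTendsto (fun n => y n - yl) (U : Filter ℕ) 0 := by
    have := hyl.sub (wtendsto_const (U : Filter ℕ) yl)
    simpa using this
  have hvM : ∀ n, ‖y n - yl‖ ≤ 2 := by
    intro n
    calc ‖y n - yl‖ ≤ ‖y n‖ + ‖yl‖ := norm_sub_le _ _
      _ ≤ 2 := by have := hy1 n; linarith
  set η' : ℝ := η / (4 * (β + 1)) with hη'
  have hη'0 : 0 < η' := by positivity
  have hβη : β * η' ≤ η / 4 := by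
    rw [hη']
    have h1 : β * (η / (4 * (β + 1))) = (β / (β + 1)) * (η / 4) := by
      field_simp
    rw [h1]
    have h2 : β / (β + 1) ≤ 1 := by
      rw [div_le_one (by linarith)]; linarith
    nlinarith
  have hflip : ∀ᶠ n in (U : Filter ℕ), ‖(y n - yl) + (-yl)‖ ≤ μ * 1 + η' := by
    apply hW.eventually hrefl hvM hv0 (-yl) _ hη'0
    refine Eventually.of_forall fun n => ?_
    have : y n - yl - -yl = y n := by abel
    rw [this]
    exact hy1 n
  -- the cross terms vanish
  have hc1 : Tendsto (fun n => u n yl) (U : Filter ℕ) (𝓝 0) := by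
    have := (hu (NormedSpace.inclusionInDoubleDual ℝ X yl)).mono_left hUle
    simpa [NormedSpace.dual_def] using this
  have hc2 : Tendsto (fun n => f (y n - yl)) (U : Filter ℕ) (𝓝 0) := by
    simpa using hv0 f
  have hc : Tendsto (fun n => 2 * u n yl + 2 * f (y n - yl)) (U : Filter ℕ) (𝓝 0) := by
    simpa using (hc1.const_mul 2).add (hc2.const_mul 2)
  have hsmall : ∀ᶠ n in (U : Filter ℕ), 2 * u n yl + 2 * f (y n - yl) < η / 4 :=
    hc.eventually (gt_mem_nhds (by positivity))
  obtain ⟨n, hn1, hn2⟩ := (hflip.and hsmall).exists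
  have hid : (u n + f) (y n) = (u n - f) ((y n - yl) + (-yl)) +
      (2 * u n yl + 2 * f (y n - yl)) := by
    simp only [ContinuousLinearMap.add_apply, ContinuousLinearMap.sub_apply, map_add, map_sub,
      map_neg]
    ring
  have hbound : (u n - f) ((y n - yl) + (-yl)) ≤ β * (μ * 1 + η') := by
    calc (u n - f) ((y n - yl) + (-yl)) ≤ ‖(u n - f) ((y n - yl) + (-yl))‖ := le_abs_self _
      _ ≤ ‖u n - f‖ * ‖(y n - yl) + (-yl)‖ := (u n - f).le_opNorm _
      _ ≤ β * (μ * 1 + η') := mul_le_mul (hβ n) hn1 (norm_nonneg _) hβ0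
  have := hy2 n
  rw [hid] at this
  nlinarith

end Vale.Agent.P079
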