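import Vale.Agent.P079.Worth

open Filter Topology Set

namespace Vale.Agent.P079

variable {X : Type*} [NormedAddCommGroup X] [NormedSpace ℝ X]

/-- From a bounded family that is weakly null along a filter on a countable index type one can
extract a weakly null sequence all of whose indices satisfy a frequently true property. -/
theorem exists_seq_wnull
    (hrefl : Function.Surjective (NormedSpace.inclusionInDoubleDual ℝ X))
    {ι : Type*} [Countable ι] {l : Filter ι} {u : ι → X} {M : ℝ}
    (hM : ∀ i, ‖u i‖ ≤ M) (hu : WTendsto u l 0) {P : ι → Prop} (hP : ∃ᶠ i in l, P i) :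
    ∃ i : ℕ → ι, (∀ k, P (i k)) ∧ WTendsto (fun k => u (i k)) atTop 0 := by
  set S : Set X := closure (Submodule.span ℝ (range u) : Set X) with hS
  have hsep : TopologicalSpace.IsSeparable S :=
    ((countable_range u).isSeparable.span (R := ℝ)).closure
  obtain ⟨c, hc, hSc⟩ := hsep
  have hc' : (insert (0 : X) c).Countable := hc.insert 0
  obtain ⟨q, hq⟩ := hc'.exists_eq_range (insert_nonempty 0 c)
  have hSq : S ⊆ closure (range q) := by
    rw [← hq]
    exact hSc.trans (closure_mono (subset_insert _ _))
  choose g hg1 hg2 using fun j => exists_dual_vector'' ℝ (q j)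
  have hg2' : ∀ j, g j (q j) = ‖q j‖ := by
    intro j
    simpa using hg2 j
  have hex : ∀ k : ℕ, ∃ i, P i ∧
      ∀ j ∈ Finset.range (k + 1), |g j (u i)| < 1 / ((k : ℝ) + 1) := by
    intro k
    have h1 : ∀ᶠ i in l, ∀ j ∈ Finset.range (k + 1), |g j (u i)| < 1 / ((k : ℝ) + 1) := by
      rw [Filter.eventually_all_finset]
      intro j _
      have h2 : Tendsto (fun i => g j (u i)) l (𝓝 0) := by simpa using hu (g j)
      have h3 : ∀ᶠ i in l, g j (u i) ∈ Metric.ball (0 : ℝ) (1 / ((k : ℝ) + 1)) :=
        h2 (Metric.ball_mem_nhds _ (by positivity))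
      filter_upwards [h3] with i hi
      simpa [Real.dist_eq] using hi
    exact (hP.and_eventually h1).exists
  choose i hi1 hi3 using hex
  refine ⟨i, hi1, ?_⟩
  apply wtendsto_zero_of_countable hrefl hg1 hg2' (S := S) isClosed_closure
    ((Submodule.span ℝ (range u)).convex.closure) hSq (fun k => hM (i k))
  · intro k
    exact subset_closure (Submodule.subset_span (mem_range_self _))
  · intro j
    rw [Metric.tendsto_atTop]
    intro ε hε
    obtain ⟨N, hN⟩ := exists_nat_one_div_lt hε
    refine ⟨max N j, fun k hk => ?_⟩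
    have hk1 : N ≤ k := le_trans (le_max_left _ _) hk
    have hk2 : j ≤ k := le_trans (le_max_right _ _) hk
    have h4 := hi3 k j (Finset.mem_range.2 (Nat.lt_succ_of_le hk2))
    have h5 : (1 : ℝ) / ((k : ℝ) + 1) ≤ 1 / ((N : ℝ) + 1) := by
      apply one_div_le_one_div_of_le (by positivity)
      have : (N : ℝ) ≤ k := by exact_mod_cast hk1
      linarith
    rw [Real.dist_eq, sub_zero]
    linarith

end Vale.Agent.P079
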