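import Vale.Agent.P079.FPP

open Filter Topology Set

namespace Vale.Agent.P079

variable {X : Type*} [NormedAddCommGroup X] [NormedSpace ℝ X]

/-- the limsup form of the near-WORTH inequality implies the epsilon form -/
theorem nearWorth_of_limsup {μ : ℝ}
    (h : ∀ (x : X) (u : ℕ → X),
      (∀ f : StrongDual ℝ X, Tendsto (fun n => f (u n)) atTop (𝓝 0)) →
      limsup (fun n => ‖u n + x‖) atTop ≤ μ * limsup (fun n => ‖u n - x‖) atTop) :
    NearWorth X (max μ 0) := by
  intro x u β hu hβ η hη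
  by_contra hcon
  push Not at hcon
  have hu' : ∀ f : StrongDual ℝ X, Tendsto (fun n => f (u n)) atTop (𝓝 0) := by
    intro f
    simpa using hu f
  have h1 := h x u hu'
  have hbd1 : IsBoundedUnder (· ≤ ·) atTop (fun n => ‖u n - x‖) :=
    isBoundedUnder_of ⟨β, hβ⟩
  have hbd2 : IsBoundedUnder (· ≤ ·) atTop (fun n => ‖u n + x‖) := by
    refine isBoundedUnder_of ⟨β + 2 * ‖x‖, fun n => ?_⟩
    calc ‖u n + x‖ = ‖(u n - x) + (2 : ℝ) • x‖ := by rw [two_smul]; congr 1; abel
      _ ≤ ‖u n - x‖ + ‖(2 : ℝ) • x‖ := norm_add_le _ _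
      _ ≤ β + 2 * ‖x‖ := by
          rw [norm_smul]
          have := hβ n
          simp only [Real.norm_ofNat]
          linarith
  have hL0 : 0 ≤ limsup (fun n => ‖u n - x‖) atTop :=
    le_limsup_of_frequently_le (Frequently.of_forall fun n => norm_nonneg _) hbd1
  have hLβ : limsup (fun n => ‖u n - x‖) atTop ≤ β :=
    limsup_le_of_le (isCoboundedUnder_le_of_le atTop (x := 0) fun n => norm_nonneg _)
      (Eventually.of_forall hβ)
  have h2 : max μ 0 * β + η ≤ limsup (fun n => ‖u n + x‖) atTop :=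
    le_limsup_of_frequently_le (Frequently.of_forall fun n => (hcon n).le) hbd2
  have h3 : μ * limsup (fun n => ‖u n - x‖) atTop ≤ max μ 0 * β := by
    calc μ * limsup (fun n => ‖u n - x‖) atTop
        ≤ max μ 0 * limsup (fun n => ‖u n - x‖) atTop := by
          gcongr
          exact le_max_left _ _
      _ ≤ max μ 0 * β := by
          gcongr
  linarith

/-- the classical WORTH property implies the epsilon form with constant one -/
theorem nearWorth_of_worth
    (h : ∀ (x : X) (u : ℕ → X),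
      (∀ f : StrongDual ℝ X, Tendsto (fun n => f (u n)) atTop (𝓝 0)) →
      Tendsto (fun n => ‖u n + x‖ - ‖u n - x‖) atTop (𝓝 0)) :
    NearWorth X 1 := by
  intro x u β hu hβ η hη
  have hu' : ∀ f : StrongDual ℝ X, Tendsto (fun n => f (u n)) atTop (𝓝 0) := by
    intro f
    simpa using hu f
  have h1 := h x u hu'
  have h2 : ∀ᶠ n in atTop, ‖u n + x‖ - ‖u n - x‖ < η := h1.eventually (gt_mem_nhds hη)
  obtain ⟨n, hn⟩ := h2.exists
  refine ⟨n, ?_⟩
  have := hβ n
  linarith

variable [CompleteSpace X]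

/-- from maps of the ambient space to self-maps of the subtype -/
theorem fpp_subtype
    (hrefl : Function.Surjective (NormedSpace.inclusionInDoubleDual ℝ X))
    {μ : ℝ} (hμ0 : 0 ≤ μ) (hμ : 2 * μ ^ 2 + μ < 5) (hW : NearWorth X μ)
    (C : Set X) (hne : C.Nonempty) (hcl : IsClosed C) (hbd : Bornology.IsBounded C)
    (hconv : Convex ℝ C) (T : C → C) (hT : ∀ a b : C, ‖(T a : X) - T b‖ ≤ ‖(a : X) - b‖) :
    ∃ x : C, T x = x := by
  classical
  set T' : X → X := fun x => if h : x ∈ C then (T ⟨x, h⟩ : X) else x with hT'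
  have hval : ∀ (x : X) (h : x ∈ C), T' x = (T ⟨x, h⟩ : X) := by
    intro x h
    simp only [hT', dif_pos h]
  have hinv : InvSet T' C :=
    { nonempty := hne
      closed := hcl
      bounded := hbd
      convex := hconv
      maps := by
        intro x hx
        rw [hval x hx]
        exact (T ⟨x, hx⟩).2 }
  have hnon : ∀ a ∈ C, ∀ b ∈ C, ‖T' a - T' b‖ ≤ ‖a - b‖ := by
    intro a ha b hb
    rw [hval a ha, hval b hb]
    exact hT ⟨a, ha⟩ ⟨b, hb⟩
  obtain ⟨x, hxC, hx⟩ := fixedPoint_of_nearWorth hrefl hμ0 hμ hW hinv hnon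
  refine ⟨⟨x, hxC⟩, ?_⟩
  apply Subtype.ext
  rw [← hval x hxC]
  exact hx

end Vale.Agent.P079
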