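import Vale.Agent.P079.Main
import Vale.Agent.P079.Extract

open Filter Topology Set

namespace Vale.Agent.P079

variable {X : Type*} [NormedAddCommGroup X] [NormedSpace ℝ X] [CompleteSpace X]

/-- General scheme: if in every invariant set of diameter at most `r` there are approximate fixed
points of arbitrarily small displacement within `κ r` of a point of the set, `κ < 1`, then there is
a fixed point. -/
theorem fixedPoint_of_key
    (hrefl : Function.Surjective (NormedSpace.inclusionInDoubleDual ℝ X))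
    {κ : ℝ} (hκ0 : 0 ≤ κ) (hκ1 : κ < 1)
    {T : X → X} {C : Set X} (hC : InvSet T C)
    (hT : ∀ a ∈ C, ∀ b ∈ C, ‖T a - T b‖ ≤ ‖a - b‖)
    (key : ∀ K : Set X, K ⊆ C → InvSet T K → ∀ r : ℝ, 0 < r → (∀ a ∈ K, ∀ b ∈ K, ‖a - b‖ ≤ r) →
      ∃ xi ∈ K, ∀ t : ℝ, 0 < t → t ≤ 1 → ∀ η > 0, ∃ y ∈ K, ‖y - T y‖ ≤ t * r ∧
        ‖y - xi‖ ≤ κ * r + η) : ∃ x ∈ C, T x = x := by
  obtain ⟨K, hKC, hK⟩ := exists_minInv hrefl hC
  have hTK : ∀ a ∈ K, ∀ b ∈ K, ‖T a - T b‖ ≤ ‖a - b‖ := fun a ha b hb =>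
    hT a (hKC ha) b (hKC hb)
  obtain ⟨r0, hr0⟩ := Metric.isBounded_iff.1 hK.1.bounded
  have hr0' : ∀ a ∈ K, ∀ b ∈ K, ‖a - b‖ ≤ r0 := fun a ha b hb => by
    rw [← dist_eq_norm]; exact hr0 ha hb
  set κ' : ℝ := (1 + κ) / 2 with hκ'
  have hκ'1 : κ' < 1 := by rw [hκ']; linarith
  have hκ'0 : 0 ≤ κ' := by rw [hκ']; linarith
  obtain ⟨x0, hx0⟩ := hK.1.nonempty
  have step : ∀ r : ℝ, (∀ a ∈ K, ∀ b ∈ K, ‖a - b‖ ≤ r) → ∀ a ∈ K, ∀ b ∈ K, ‖a - b‖ ≤ κ' * r := by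
    intro r hr
    have hrnn : 0 ≤ r := le_trans (norm_nonneg _) (hr x0 hx0 x0 hx0)
    rcases hrnn.eq_or_lt with h0 | hpos
    · intro a ha b hb
      have := hr a ha b hb
      rw [← h0] at this ⊢
      simpa using this
    · obtain ⟨xi, hxiK, hxi⟩ := key K hKC hK.1 r hpos hr
      apply hK.goebel_karlovitz hrefl hTK hxiK
      intro δ hδ
      have ht0 : 0 < min 1 (δ / r) := lt_min one_pos (by positivity)
      obtain ⟨y, hyK, hy1, hy2⟩ := hxi (min 1 (δ / r)) ht0 (min_le_left _ _)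
        ((1 - κ) / 2 * r) (by
          have : 0 < 1 - κ := by linarith
          positivity)
      refine ⟨y, hyK, ?_, ?_⟩
      · calc ‖y - T y‖ ≤ min 1 (δ / r) * r := hy1
          _ ≤ δ / r * r := by gcongr; exact min_le_right _ _
          _ = δ := by field_simp
      · calc ‖y - xi‖ ≤ κ * r + (1 - κ) / 2 * r := hy2
          _ = κ' * r := by rw [hκ']; ring
  have hpow : ∀ n : ℕ, ∀ a ∈ K, ∀ b ∈ K, ‖a - b‖ ≤ κ' ^ n * r0 := by
    intro n
    induction n with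
    | zero => simpa using hr0'
    | succ n ih =>
      intro a ha b hb
      have := step _ ih a ha b hb
      calc ‖a - b‖ ≤ κ' * (κ' ^ n * r0) := this
        _ = κ' ^ (n + 1) * r0 := by ring
  have hsingle : ∀ a ∈ K, ∀ b ∈ K, a = b := by
    intro a ha b hb
    have h1 : Tendsto (fun n : ℕ => κ' ^ n * r0) atTop (𝓝 (0 * r0)) :=
      (tendsto_pow_atTop_nhds_zero_of_lt_one hκ'0 hκ'1).mul_const r0
    rw [zero_mul] at h1
    have h2 : ‖a - b‖ ≤ 0 := ge_of_tendsto' h1 (fun n => hpow n a ha b hb)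
    have h3 : ‖a - b‖ = 0 := le_antisymm h2 (norm_nonneg _)
    exact sub_eq_zero.1 (norm_eq_zero.1 h3)
  exact ⟨x0, hKC hx0, hsingle _ (hK.1.maps hx0) _ hx0⟩

/-- from maps of the ambient space to self-maps of the subtype (general form) -/
theorem fpp_subtype_of
    (H : ∀ (T : X → X) (C : Set X), InvSet T C → (∀ a ∈ C, ∀ b ∈ C, ‖T a - T b‖ ≤ ‖a - b‖) →
      ∃ x ∈ C, T x = x)
    (C : Set X) (hne : C.Nonempty) (hcl : IsClosed C) (hbd : Bornology.IsBounded C)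
    (hconv : Convex ℝ C) (T : C → C) (hT : ∀ a b : C, ‖(T a : X) - T b‖ ≤ ‖(a : X) - b‖) :
    ∃ x : C, T x = x := by
  classical
  set T' : X → X := fun x => if h : x ∈ C then (T ⟨x, h⟩ : X) else x with hT'
  have hval : ∀ (x : X) (h : x ∈ C), T' x = (T ⟨x, h⟩ : X) := by
    intro x h
    simp only [hT', dif_pos h]
  have hinv : InvSet T' C :=
    { nonempty := hne
      closed := hcl
      bounded := hbd
      convex := hconv
      maps := by
        intro x hx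
        rw [hval x hx]
        exact (T ⟨x, hx⟩).2 }
  have hnon : ∀ a ∈ C, ∀ b ∈ C, ‖T' a - T' b‖ ≤ ‖a - b‖ := by
    intro a ha b hb
    rw [hval a ha, hval b hb]
    exact hT ⟨a, ha⟩ ⟨b, hb⟩
  obtain ⟨x, hxC, hx⟩ := H T' C hinv hnon
  refine ⟨⟨x, hxC⟩, ?_⟩
  apply Subtype.ext
  rw [← hval x hxC]
  exact hx

end Vale.Agent.P079
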