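import Vale.Agent.P079.Weak

open Filter Topology Set

namespace Vale.Agent.P079

variable {X : Type*} [NormedAddCommGroup X] [NormedSpace ℝ X]

/-- nonempty closed bounded convex `T`-invariant sets -/
structure InvSet (T : X → X) (K : Set X) : Prop where
  nonempty : K.Nonempty
  closed : IsClosed K
  bounded : Bornology.IsBounded K
  convex : Convex ℝ K
  maps : MapsTo T K K

/-- minimal invariant sets -/
def MinInv (T : X → X) (K : Set X) : Prop :=
  InvSet T K ∧ ∀ D, D ⊆ K → InvSet T D → D = K

theorem exists_minInv
    (hrefl : Function.Surjective (NormedSpace.inclusionInDoubleDual ℝ X))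
    {T : X → X} {C : Set X} (hC : InvSet T C) : ∃ K, K ⊆ C ∧ MinInv T K := by
  obtain ⟨K, hKC, hK⟩ := zorn_superset_nonempty {D : Set X | InvSet T D} (by
    intro c hc hchain hne
    refine ⟨⋂₀ c, ?_, fun s hs => sInter_subset_of_mem hs⟩
    obtain ⟨D0, hD0⟩ := hne
    have hnonempty : (⋂₀ c).Nonempty := by
      haveI : Nonempty c := ⟨⟨D0, hD0⟩⟩
      have h := IsCompact.nonempty_iInter_of_directed_nonempty_isCompact_isClosed
        (fun D : c => toWeakSpace ℝ X '' (D : Set X)) (by
          intro D1 D2
          rcases hchain.total D1.2 D2.2 with h | h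
          · exact ⟨D1, subset_rfl, image_mono h⟩
          · exact ⟨D2, image_mono h, subset_rfl⟩)
        (fun D => (hc D.2).nonempty.image _)
        (fun D => isCompact_image_toWeakSpace hrefl (hc D.2).closed (hc D.2).bounded
          (hc D.2).convex)
        (fun D => isClosed_image_toWeakSpace (hc D.2).closed (hc D.2).convex)
      obtain ⟨y, hy⟩ := h
      refine ⟨(toWeakSpace ℝ X).symm y, ?_⟩
      intro D hD
      have := mem_iInter.1 hy ⟨D, hD⟩
      obtain ⟨x, hx, rfl⟩ := this
      simpa using hx
    exact
      { nonempty := hnonempty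
        closed := isClosed_sInter fun D hD => (hc hD).closed
        bounded := (hc hD0).bounded.subset (sInter_subset_of_mem hD0)
        convex := convex_sInter fun D hD => (hc hD).convex
        maps := fun x hx D hD => (hc hD).maps (hx D hD) }) C hC
  refine ⟨K, hKC, hK.prop, fun D hDK hD => ?_⟩
  exact (hK.eq_of_subset hD hDK)

/-- Kirk's lemma: in a minimal invariant set, if one point has radius at most `r`, the diameter is
at most `r`. -/
theorem MinInv.diam_le_of_radius {T : X → X} {K : Set X} (hK : MinInv T K)
    (hT : ∀ a ∈ K, ∀ b ∈ K, ‖T a - T b‖ ≤ ‖a - b‖) {r : ℝ} {v : X} (hv : v ∈ K)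
    (hr : ∀ y ∈ K, ‖v - y‖ ≤ r) : ∀ a ∈ K, ∀ b ∈ K, ‖a - b‖ ≤ r := by
  set D : Set X := {x ∈ K | ∀ y ∈ K, ‖x - y‖ ≤ r} with hD
  have hDK : D ⊆ K := fun x hx => hx.1
  have hDeq : D = K ∩ ⋂ y ∈ K, Metric.closedBall y r := by
    ext x
    simp only [hD, mem_setOf_eq, mem_inter_iff, mem_iInter, Metric.mem_closedBall, dist_eq_norm]
  have hinv : InvSet T D :=
    { nonempty := ⟨v, hv, hr⟩
      closed := by
        rw [hDeq]
        exact hK.1.closed.inter (isClosed_biInter fun y _ => Metric.isClosed_closedBall)
      bounded := hK.1.bounded.subset hDK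
      convex := by
        rw [hDeq]
        exact hK.1.convex.inter (convex_iInter₂ fun y _ => convex_closedBall y r)
      maps := by
        intro x hx
        refine ⟨hK.1.maps hx.1, ?_⟩
        -- K ∩ closedBall (T x) r is invariant
        have hinv2 : InvSet T (K ∩ Metric.closedBall (T x) r) :=
          { nonempty := ⟨T x, hK.1.maps hx.1, by
              have : 0 ≤ r := le_trans (norm_nonneg _) (hx.2 x hx.1)
              simpa using this⟩
            closed := hK.1.closed.inter Metric.isClosed_closedBall
            bounded := hK.1.bounded.subset inter_subset_left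
            convex := hK.1.convex.inter (convex_closedBall _ _)
            maps := by
              intro y hy
              refine ⟨hK.1.maps hy.1, ?_⟩
              rw [Metric.mem_closedBall, dist_eq_norm]
              calc ‖T y - T x‖ ≤ ‖y - x‖ := hT y hy.1 x hx.1
                _ = ‖x - y‖ := norm_sub_rev _ _
                _ ≤ r := hx.2 y hy.1 }
        have heq := hK.2 _ inter_subset_left hinv2
        intro y hy
        have hy' : y ∈ K ∩ Metric.closedBall (T x) r := by rw [heq]; exact hy
        have := hy'.2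
        rw [Metric.mem_closedBall, dist_eq_norm] at this
        rwa [norm_sub_rev] }
  have heq := hK.2 D hDK hinv
  intro a ha b hb
  have ha' : a ∈ D := by rw [heq]; exact ha
  exact ha'.2 b hb

/-- Goebel-Karlovitz lemma (quantitative form): in a minimal invariant set of a reflexive space, if
there are approximate fixed points of arbitrarily small displacement within distance `ρ` of a fixed
point `x₀` of the set, then the diameter is at most `ρ`. -/
theorem MinInv.goebel_karlovitz
    (hrefl : Function.Surjective (NormedSpace.inclusionInDoubleDual ℝ X))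
    {T : X → X} {K : Set X} (hK : MinInv T K)
    (hT : ∀ a ∈ K, ∀ b ∈ K, ‖T a - T b‖ ≤ ‖a - b‖) {ρ : ℝ} {x₀ : X} (hx₀ : x₀ ∈ K)
    (happ : ∀ δ > 0, ∃ y ∈ K, ‖y - T y‖ ≤ δ ∧ ‖y - x₀‖ ≤ ρ) :
    ∀ a ∈ K, ∀ b ∈ K, ‖a - b‖ ≤ ρ := by
  choose v hvK hv1 hv2 using fun k : ℕ => happ (1 / ((k : ℝ) + 1)) (by positivity)
  have hv0 : Tendsto (fun k => ‖v k - T (v k)‖) atTop (𝓝 0) := by
    apply squeeze_zero (fun k => norm_nonneg _) hv1
    exact tendsto_one_div_add_atTop_nhds_zero_nat
  set D : Set X := {x ∈ K | ∀ η > 0, ∀ᶠ k in atTop, ‖v k - x‖ ≤ ρ + η} with hD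
  have hDK : D ⊆ K := fun x hx => hx.1
  have hinv : InvSet T D :=
    { nonempty := ⟨x₀, hx₀, fun η hη => Eventually.of_forall fun k => by
        have := hv2 k; linarith⟩
      closed := by
        apply isClosed_of_closure_subset
        intro x hx
        have hxK : x ∈ K := by
          have := closure_mono hDK hx
          rwa [hK.1.closed.closure_eq] at this
        refine ⟨hxK, fun η hη => ?_⟩
        obtain ⟨y, hyD, hy⟩ := Metric.mem_closure_iff.1 hx (η / 2) (by positivity)
        rw [dist_eq_norm] at hy
        filter_upwards [hyD.2 (η / 2) (by positivity)] with k hk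
        calc ‖v k - x‖ = ‖(v k - y) - (x - y)‖ := by congr 1; abel
          _ ≤ ‖v k - y‖ + ‖x - y‖ := norm_sub_le _ _
          _ ≤ ρ + η := by linarith
      bounded := hK.1.bounded.subset hDK
      convex := by
        intro x hx y hy a b ha hb hab
        refine ⟨hK.1.convex hx.1 hy.1 ha hb hab, fun η hη => ?_⟩
        filter_upwards [hx.2 η hη, hy.2 η hη] with k hk1 hk2
        have : v k - (a • x + b • y) = a • (v k - x) + b • (v k - y) := by
          have h1 : v k = a • v k + b • v k := by rw [← add_smul, hab, one_smul]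
          rw [smul_sub, smul_sub]
          nth_rewrite 1 [h1]
          abel
        rw [this]
        calc ‖a • (v k - x) + b • (v k - y)‖ ≤ ‖a • (v k - x)‖ + ‖b • (v k - y)‖ :=
              norm_add_le _ _
          _ = a * ‖v k - x‖ + b * ‖v k - y‖ := by
              rw [norm_smul, norm_smul, Real.norm_of_nonneg ha, Real.norm_of_nonneg hb]
          _ ≤ a * (ρ + η) + b * (ρ + η) := by gcongr
          _ = ρ + η := by rw [← add_mul, hab, one_mul]
      maps := by
        intro x hx
        refine ⟨hK.1.maps hx.1, fun η hη => ?_⟩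
        have h1 : ∀ᶠ k in atTop, ‖v k - T (v k)‖ < η / 2 :=
          hv0.eventually (gt_mem_nhds (by positivity))
        filter_upwards [hx.2 (η / 2) (by positivity), h1] with k hk1 hk2
        calc ‖v k - T x‖ = ‖(v k - T (v k)) + (T (v k) - T x)‖ := by congr 1; abel
          _ ≤ ‖v k - T (v k)‖ + ‖T (v k) - T x‖ := norm_add_le _ _
          _ ≤ ‖v k - T (v k)‖ + ‖v k - x‖ := by
              gcongr
              exact hT _ (hvK k) _ hx.1
          _ ≤ ρ + η := by linarith }
  have heq := hK.2 D hDK hinv
  -- weak limit along an ultrafilter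
  obtain ⟨w, hwK, hw⟩ := exists_wlimit hrefl hK.1.closed hK.1.bounded hK.1.convex
    (Filter.hyperfilter ℕ) v (Eventually.of_forall hvK)
  apply hK.diam_le_of_radius hT hwK
  intro y hy
  have hyD : y ∈ D := by rw [heq]; exact hy
  apply le_of_forall_pos_le_add
  intro η hη
  have h1 : WTendsto (fun k => v k - y) (Filter.hyperfilter ℕ : Filter ℕ) (w - y) :=
    hw.sub (wtendsto_const _ y)
  apply norm_le_of_wtendsto h1
  have h2 : ((Filter.hyperfilter ℕ : Ultrafilter ℕ) : Filter ℕ) ≤ atTop := by
    rw [← Nat.cofinite_eq_atTop]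
    exact Filter.hyperfilter_le_cofinite
  exact h2 (hyD.2 η hη)

end Vale.Agent.P079
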