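import Vale.Agent.P079.Minimal

open Filter Topology Set

namespace Vale.Agent.P079

variable {X : Type*} [NormedAddCommGroup X] [NormedSpace ℝ X] [CompleteSpace X]

/-- The resolvent point: the fixed point of `y ↦ t w + (1 - t) T y`. -/
theorem exists_resolvent {T : X → X} {K : Set X} (hK : InvSet T K)
    (hT : ∀ a ∈ K, ∀ b ∈ K, ‖T a - T b‖ ≤ ‖a - b‖) {w : X} (hw : w ∈ K) {t : ℝ} (ht0 : 0 < t)
    (ht1 : t ≤ 1) : ∃ y ∈ K, y = t • w + (1 - t) • T y := by
  set f : X → X := fun y => t • w + (1 - t) • T y with hf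
  have hmaps : MapsTo f K K := by
    intro y hy
    exact hK.convex hw (hK.maps hy) ht0.le (by linarith) (by ring)
  have h1t : (0 : ℝ) ≤ 1 - t := by linarith
  have hcontr : ContractingWith (Real.toNNReal (1 - t)) (hmaps.restrict f K K) := by
    refine ⟨?_, ?_⟩
    · rw [← NNReal.coe_lt_coe, Real.coe_toNNReal _ h1t]
      simp only [NNReal.coe_one]
      linarith
    · apply LipschitzWith.of_dist_le_mul
      intro a b
      rw [Subtype.dist_eq, Subtype.dist_eq, dist_eq_norm, dist_eq_norm, Real.coe_toNNReal _ h1t]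
      simp only [MapsTo.val_restrict_apply, hf]
      have : t • w + (1 - t) • T a - (t • w + (1 - t) • T b) = (1 - t) • (T a - T b) := by
        rw [smul_sub]; abel
      rw [this, norm_smul, Real.norm_of_nonneg h1t]
      exact mul_le_mul_of_nonneg_left (hT _ a.2 _ b.2) h1t
  obtain ⟨y, hyK, hfix, -⟩ := hcontr.exists_fixedPoint' hK.closed.isComplete hmaps hw
    (edist_ne_top _ _)
  exact ⟨y, hyK, hfix.symm⟩

omit [CompleteSpace X] in
/-- displacement of a resolvent point -/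
theorem resolvent_displacement {T : X → X} {K : Set X} (hK : InvSet T K) {r : ℝ}
    (hr : ∀ a ∈ K, ∀ b ∈ K, ‖a - b‖ ≤ r) {w y : X} (hw : w ∈ K) (hy : y ∈ K) {t : ℝ}
    (ht0 : 0 < t) (hyeq : y = t • w + (1 - t) • T y) : ‖y - T y‖ ≤ t * r := by
  have h1 : y - T y = t • (w - T y) := by
    nth_rewrite 1 [hyeq]
    rw [smul_sub, sub_smul, one_smul]; abel
  rw [h1, norm_smul, Real.norm_of_nonneg ht0.le]
  gcongr
  exact hr _ hw _ (hK.maps hy)

omit [CompleteSpace X] in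
/-- distance from a resolvent point to an approximate fixed point -/
theorem resolvent_dist_approx {T : X → X} {K : Set X}
    (hT : ∀ a ∈ K, ∀ b ∈ K, ‖T a - T b‖ ≤ ‖a - b‖) {w y x : X} (hy : y ∈ K)
    (hx : x ∈ K) {t : ℝ} (ht0 : 0 < t) (ht1 : t ≤ 1) (hyeq : y = t • w + (1 - t) • T y) :
    ‖y - x‖ ≤ ‖w - x‖ + ‖x - T x‖ / t := by
  have h1 : y - x = t • (w - x) + (1 - t) • (T y - T x) + (1 - t) • (T x - x) := by
    nth_rewrite 1 [hyeq]
    simp only [smul_sub, sub_smul, one_smul]; abel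
  have h2 : ‖y - x‖ ≤ t * ‖w - x‖ + (1 - t) * ‖y - x‖ + (1 - t) * ‖x - T x‖ := by
    calc ‖y - x‖ = ‖t • (w - x) + (1 - t) • (T y - T x) + (1 - t) • (T x - x)‖ := by rw [← h1]
      _ ≤ ‖t • (w - x)‖ + ‖(1 - t) • (T y - T x)‖ + ‖(1 - t) • (T x - x)‖ := norm_add₃_le
      _ = t * ‖w - x‖ + (1 - t) * ‖T y - T x‖ + (1 - t) * ‖x - T x‖ := by
          rw [norm_smul, norm_smul, norm_smul, Real.norm_of_nonneg ht0.le,
            Real.norm_of_nonneg (by linarith : (0 : ℝ) ≤ 1 - t), norm_sub_rev (T x) x]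
      _ ≤ t * ‖w - x‖ + (1 - t) * ‖y - x‖ + (1 - t) * ‖x - T x‖ := by
          have := mul_le_mul_of_nonneg_left (hT _ hy _ hx) (by linarith : (0 : ℝ) ≤ 1 - t)
          linarith
  have h3 : t * ‖y - x‖ ≤ t * ‖w - x‖ + ‖x - T x‖ := by
    have : (1 - t) * ‖x - T x‖ ≤ ‖x - T x‖ := by
      have := norm_nonneg (x - T x)
      nlinarith
    linarith
  have h4 : ‖y - x‖ ≤ (t * ‖w - x‖ + ‖x - T x‖) / t := by
    rw [le_div_iff₀ ht0]; linarith
  calc ‖y - x‖ ≤ (t * ‖w - x‖ + ‖x - T x‖) / t := h4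
    _ = ‖w - x‖ + ‖x - T x‖ / t := by field_simp

omit [CompleteSpace X] in
/-- distance between two resolvent points with the same parameter -/
theorem resolvent_dist_resolvent {T : X → X} {K : Set X}
    (hT : ∀ a ∈ K, ∀ b ∈ K, ‖T a - T b‖ ≤ ‖a - b‖) {w w' y p : X} (hy : y ∈ K)
    (hp : p ∈ K) {t : ℝ} (ht0 : 0 < t) (ht1 : t ≤ 1) (hyeq : y = t • w + (1 - t) • T y)
    (hpeq : p = t • w' + (1 - t) • T p) : ‖y - p‖ ≤ ‖w - w'‖ := by
  have h1 : y - p = t • (w - w') + (1 - t) • (T y - T p) := by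
    nth_rewrite 1 [hyeq]
    nth_rewrite 1 [hpeq]
    simp only [smul_sub, sub_smul, one_smul]; abel
  have h2 : ‖y - p‖ ≤ t * ‖w - w'‖ + (1 - t) * ‖y - p‖ := by
    calc ‖y - p‖ = ‖t • (w - w') + (1 - t) • (T y - T p)‖ := by rw [← h1]
      _ ≤ ‖t • (w - w')‖ + ‖(1 - t) • (T y - T p)‖ := norm_add_le _ _
      _ = t * ‖w - w'‖ + (1 - t) * ‖T y - T p‖ := by
          rw [norm_smul, norm_smul, Real.norm_of_nonneg ht0.le,
            Real.norm_of_nonneg (by linarith : (0 : ℝ) ≤ 1 - t)]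
      _ ≤ t * ‖w - w'‖ + (1 - t) * ‖y - p‖ := by
          have := mul_le_mul_of_nonneg_left (hT _ hy _ hp) (by linarith : (0 : ℝ) ≤ 1 - t)
          linarith
  have h3 : t * ‖y - p‖ ≤ t * ‖w - w'‖ := by linarith
  exact le_of_mul_le_mul_left h3 ht0

end Vale.Agent.P079
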