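import Mathlib

open Filter Topology Set

namespace Vale.Agent.P079

variable {X : Type*} [NormedAddCommGroup X] [NormedSpace ℝ X]

/-- closed convex sets are weakly closed -/
theorem isClosed_image_toWeakSpace {C : Set X} (hcl : IsClosed C) (hconv : Convex ℝ C) :
    IsClosed (toWeakSpace ℝ X '' C) := by
  have h := hconv.toWeakSpace_closure ℝ
  rw [hcl.closure_eq] at h
  rw [h]
  exact isClosed_closure

/-- In a reflexive space, closed bounded convex sets are weakly compact. -/
theorem isCompact_image_toWeakSpace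
    (hrefl : Function.Surjective (NormedSpace.inclusionInDoubleDual ℝ X))
    {C : Set X} (hcl : IsClosed C) (hbd : Bornology.IsBounded C) (hconv : Convex ℝ C) :
    IsCompact (toWeakSpace ℝ X '' C) := by
  have h1 : IsCompact (closure (toWeakSpace ℝ X '' C)) := by
    apply NormedSpace.isCompact_closure_of_isBounded ℝ X
    · have : (toWeakSpace ℝ X) ⁻¹' (toWeakSpace ℝ X '' C) = C :=
        Set.preimage_image_eq _ (toWeakSpace ℝ X).injective
      rw [this]; exact hbd
    · intro φ _
      obtain ⟨x, hx⟩ := hrefl (WeakDual.toStrongDual φ)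
      refine ⟨toWeakSpace ℝ X x, ?_⟩
      apply DFunLike.ext
      intro f
      have := congrArg (fun g => g f) hx
      exact this
  rwa [(isClosed_image_toWeakSpace hcl hconv).closure_eq] at h1

/-- weak convergence along a filter, tested against all continuous functionals -/
def WTendsto {ι : Type*} (u : ι → X) (l : Filter ι) (x : X) : Prop :=
  ∀ f : StrongDual ℝ X, Tendsto (fun i => f (u i)) l (𝓝 (f x))

theorem wtendsto_iff_tendsto_toWeakSpace {ι : Type*} (u : ι → X) (l : Filter ι) (x : X) :
    WTendsto u l x ↔ Tendsto (fun i => toWeakSpace ℝ X (u i)) l (𝓝 (toWeakSpace ℝ X x)) := by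
  constructor
  · intro h
    refine (WeakBilin.tendsto_iff_forall_eval_tendsto (topDualPairing ℝ X).flip ?_).2 ?_
    · intro a b hab
      by_contra hne
      obtain ⟨f, hf⟩ := SeparatingDual.exists_separating_of_ne (R := ℝ) hne
      exact hf (DFunLike.congr_fun hab f)
    · intro f
      exact h f
  · intro h f
    exact ((WeakBilin.eval_continuous (topDualPairing ℝ X).flip f).tendsto _).comp h

/-- Existence of weak limits along ultrafilters in closed bounded convex subsets of reflexive
spaces. -/
theorem exists_wlimit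
    (hrefl : Function.Surjective (NormedSpace.inclusionInDoubleDual ℝ X))
    {C : Set X} (hcl : IsClosed C) (hbd : Bornology.IsBounded C) (hconv : Convex ℝ C)
    {ι : Type*} (U : Ultrafilter ι) (u : ι → X) (hu : ∀ᶠ i in (U : Filter ι), u i ∈ C) :
    ∃ x ∈ C, WTendsto u U x := by
  have hK := isCompact_image_toWeakSpace hrefl hcl hbd hconv
  have hle : ((U.map (fun i => toWeakSpace ℝ X (u i)) : Ultrafilter (WeakSpace ℝ X)) :
      Filter (WeakSpace ℝ X)) ≤ 𝓟 (toWeakSpace ℝ X '' C) := by
    rw [le_principal_iff]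
    simp only [Ultrafilter.coe_map, mem_map]
    filter_upwards [hu] with i hi
    exact ⟨u i, hi, rfl⟩
  obtain ⟨y, ⟨x, hxC, rfl⟩, hy⟩ := hK.ultrafilter_le_nhds _ hle
  refine ⟨x, hxC, ?_⟩
  rw [wtendsto_iff_tendsto_toWeakSpace]
  exact hy

/-- weak lower semicontinuity of the norm along a filter -/
theorem norm_le_of_wtendsto {ι : Type*} {u : ι → X} {l : Filter ι} [l.NeBot] {x : X}
    (h : WTendsto u l x) {c : ℝ} (hc : ∀ᶠ i in l, ‖u i‖ ≤ c) : ‖x‖ ≤ c := by
  obtain ⟨g, hg1, hg2⟩ := exists_dual_vector'' ℝ x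
  have h1 : Tendsto (fun i => g (u i)) l (𝓝 (g x)) := h g
  have h2 : ∀ᶠ i in l, g (u i) ≤ c := by
    filter_upwards [hc] with i hi
    calc g (u i) ≤ ‖g (u i)‖ := le_abs_self _
      _ ≤ ‖g‖ * ‖u i‖ := g.le_opNorm _
      _ ≤ 1 * ‖u i‖ := by gcongr
      _ = ‖u i‖ := one_mul _
      _ ≤ c := hi
  have h3 : g x ≤ c := le_of_tendsto h1 h2
  have h4 : g x = ‖x‖ := by simpa using hg2
  linarith

theorem WTendsto.add {ι : Type*} {u v : ι → X} {l : Filter ι} {x y : X}
    (hu : WTendsto u l x) (hv : WTendsto v l y) : WTendsto (fun i => u i + v i) l (x + y) := by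
  intro f
  simpa using (hu f).add (hv f)

theorem WTendsto.sub {ι : Type*} {u v : ι → X} {l : Filter ι} {x y : X}
    (hu : WTendsto u l x) (hv : WTendsto v l y) : WTendsto (fun i => u i - v i) l (x - y) := by
  intro f
  simpa using (hu f).sub (hv f)

theorem wtendsto_const {ι : Type*} (l : Filter ι) (x : X) : WTendsto (fun _ => x) l x := by
  intro f
  exact tendsto_const_nhds

theorem WTendsto.mono {ι : Type*} {u : ι → X} {l l' : Filter ι} {x : X}
    (hu : WTendsto u l x) (h : l' ≤ l) : WTendsto u l' x := fun f => (hu f).mono_left h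

end Vale.Agent.P079
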