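import Vale.Agent.P079.Weak

open Filter Topology Set

namespace Vale.Agent.P079

variable {X : Type*} [NormedAddCommGroup X] [NormedSpace ℝ X]

/-- sequential near-WORTH property with constant `μ` (epsilon form) -/
def NearWorth (X : Type*) [NormedAddCommGroup X] [NormedSpace ℝ X] (μ : ℝ) : Prop :=
  ∀ (x : X) (u : ℕ → X) (β : ℝ), WTendsto u atTop 0 → (∀ n, ‖u n - x‖ ≤ β) →
    ∀ η > 0, ∃ n, ‖u n + x‖ ≤ μ * β + η

/-- A vector in the closure of `range q` killed by norming functionals of all `q j` is zero. -/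
theorem eq_zero_of_norming {q : ℕ → X} {g : ℕ → StrongDual ℝ X}
    (hg1 : ∀ j, ‖g j‖ ≤ 1) (hg2 : ∀ j, g j (q j) = ‖q j‖) {s : X}
    (hs : s ∈ closure (range q)) (h0 : ∀ j, g j s = 0) : s = 0 := by
  by_contra hne
  have hpos : 0 < ‖s‖ := norm_pos_iff.2 hne
  obtain ⟨y, ⟨j, rfl⟩, hy⟩ := Metric.mem_closure_iff.1 hs (‖s‖ / 3) (by positivity)
  rw [dist_eq_norm] at hy
  have h1 : ‖q j‖ ≤ ‖q j - s‖ := by
    calc ‖q j‖ = g j (q j) := (hg2 j).symm
      _ = g j (q j - s) := by rw [map_sub, h0 j, sub_zero]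
      _ ≤ ‖g j (q j - s)‖ := le_abs_self _
      _ ≤ ‖g j‖ * ‖q j - s‖ := (g j).le_opNorm _
      _ ≤ 1 * ‖q j - s‖ := by gcongr; exact hg1 j
      _ = ‖q j - s‖ := one_mul _
  have h2 : ‖s‖ ≤ ‖q j‖ + ‖s - q j‖ := by
    calc ‖s‖ = ‖q j + (s - q j)‖ := by congr 1; abel
      _ ≤ _ := norm_add_le _ _
  rw [norm_sub_rev] at h1
  linarith

/-- A bounded sequence in a reflexive space which is killed asymptotically by a suitable countable
family of functionals is weakly null. -/
theorem wtendsto_zero_of_countable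
    (hrefl : Function.Surjective (NormedSpace.inclusionInDoubleDual ℝ X))
    {q : ℕ → X} {g : ℕ → StrongDual ℝ X}
    (hg1 : ∀ j, ‖g j‖ ≤ 1) (hg2 : ∀ j, g j (q j) = ‖q j‖)
    {S : Set X} (hScl : IsClosed S) (hSconv : Convex ℝ S) (hSq : S ⊆ closure (range q))
    {s : ℕ → X} {M : ℝ} (hM : ∀ k, ‖s k‖ ≤ M) (hsS : ∀ k, s k ∈ S)
    (h0 : ∀ j, Tendsto (fun k => g j (s k)) atTop (𝓝 0)) : WTendsto s atTop 0 := by
  intro f
  rw [tendsto_iff_ultrafilter]
  intro G hG
  have hC : ∀ᶠ k in (G : Filter ℕ), s k ∈ Metric.closedBall (0 : X) M ∩ S :=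
    Eventually.of_forall fun k => ⟨by simpa using hM k, hsS k⟩
  obtain ⟨y, hy, hlim⟩ := exists_wlimit hrefl (Metric.isClosed_closedBall.inter hScl)
    (Metric.isBounded_closedBall.subset inter_subset_left)
    ((convex_closedBall _ _).inter hSconv) G s hC
  have hy0 : y = 0 := by
    apply eq_zero_of_norming hg1 hg2 (hSq hy.2)
    intro j
    exact tendsto_nhds_unique (hlim (g j)) ((h0 j).mono_left hG)
  rw [hy0] at hlim
  exact hlim f

/-- Filter version of the near-WORTH inequality in reflexive spaces. -/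
theorem NearWorth.eventually
    (hrefl : Function.Surjective (NormedSpace.inclusionInDoubleDual ℝ X))
    {μ : ℝ} (hW : NearWorth X μ) {ι : Type*} [Countable ι] {l : Filter ι} {u : ι → X} {M : ℝ}
    (hM : ∀ i, ‖u i‖ ≤ M) (hu : WTendsto u l 0) (x : X) {β : ℝ}
    (hβ : ∀ᶠ i in l, ‖u i - x‖ ≤ β) {η : ℝ} (hη : 0 < η) :
    ∀ᶠ i in l, ‖u i + x‖ ≤ μ * β + η := by
  by_contra hcon
  rw [not_eventually] at hcon
  -- separability
  set S : Set X := closure (Submodule.span ℝ (range u) : Set X) with hS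
  have hsep : TopologicalSpace.IsSeparable S :=
    ((countable_range u).isSeparable.span (R := ℝ)).closure
  obtain ⟨c, hc, hSc⟩ := hsep
  have hc' : (insert (0 : X) c).Countable := hc.insert 0
  obtain ⟨q, hq⟩ := hc'.exists_eq_range (insert_nonempty 0 c)
  have hSq : S ⊆ closure (range q) := by
    rw [← hq]
    exact hSc.trans (closure_mono (subset_insert _ _))
  choose g hg1 hg2 using fun j => exists_dual_vector'' ℝ (q j)
  have hg2' : ∀ j, g j (q j) = ‖q j‖ := by
    intro j
    simpa using hg2 j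
  -- choose the sequence
  have hex : ∀ k : ℕ, ∃ i, (¬ ‖u i + x‖ ≤ μ * β + η) ∧ ‖u i - x‖ ≤ β ∧
      ∀ j ∈ Finset.range (k + 1), |g j (u i)| < 1 / ((k : ℝ) + 1) := by
    intro k
    have h1 : ∀ᶠ i in l, ∀ j ∈ Finset.range (k + 1), |g j (u i)| < 1 / ((k : ℝ) + 1) := by
      rw [Filter.eventually_all_finset]
      intro j _
      have h2 : Tendsto (fun i => g j (u i)) l (𝓝 0) := by simpa using hu (g j)
      have h3 : ∀ᶠ i in l, g j (u i) ∈ Metric.ball (0 : ℝ) (1 / ((k : ℝ) + 1)) :=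
        h2 (Metric.ball_mem_nhds _ (by positivity))
      filter_upwards [h3] with i hi
      simpa [Real.dist_eq] using hi
    exact (hcon.and_eventually (hβ.and h1)).exists
  choose i hi1 hi2 hi3 using hex
  have hnull : WTendsto (fun k => u (i k)) atTop 0 := by
    apply wtendsto_zero_of_countable hrefl hg1 hg2' (S := S) isClosed_closure
      ((Submodule.span ℝ (range u)).convex.closure) hSq (fun k => hM (i k))
    · intro k
      exact subset_closure (Submodule.subset_span (mem_range_self _))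
    · intro j
      rw [Metric.tendsto_atTop]
      intro ε hε
      obtain ⟨N, hN⟩ := exists_nat_one_div_lt hε
      refine ⟨max N j, fun k hk => ?_⟩
      have hk1 : N ≤ k := le_trans (le_max_left _ _) hk
      have hk2 : j ≤ k := le_trans (le_max_right _ _) hk
      have h4 := hi3 k j (Finset.mem_range.2 (Nat.lt_succ_of_le hk2))
      have h5 : (1 : ℝ) / ((k : ℝ) + 1) ≤ 1 / ((N : ℝ) + 1) := by
        apply one_div_le_one_div_of_le (by positivity)
        have : (N : ℝ) ≤ k := by exact_mod_cast hk1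
        linarith
      rw [Real.dist_eq, sub_zero]
      linarith
  obtain ⟨n, hn⟩ := hW x (fun k => u (i k)) β hnull hi2 η hη
  exact hi1 n hn

end Vale.Agent.P079
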